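import Vale.Agent.Lib.P154.PChain.Tail
import Vale.Agent.Lib.P154.PChain.BD.H

set_option linter.all false

namespace Vale.Agent.Lib.P154.PChain.BD

open Vale.Agent.Lib.P154 Vale.Agent.Lib.P154.Neg Vale.Agent.Lib.P154.Chain

/-- the mean of the offspring -/
noncomputable def ds : ℝ := 20489 / 5000

/-- the size of the eigenvalue -/
noncomputable def ts : ℝ := 991 / 2000

theorem law_ok : LawOK (poissonLaw ds) g wp := by
  have h := lawOK_poisson (g := g) (wp := wp) (a := 20489) (b := 5000) (Un := 60207684893919) (Ud := 1000000000000) (by decide +kernel) (by decide +kernel) (by decide +kernel)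
    (by decide +kernel) (by decide +kernel) (by decide +kernel) (by decide +kernel) (by decide +kernel) (by decide +kernel)
  have e : (((20489 : ℕ) : ℝ) / ((5000 : ℕ) : ℝ)) = ds := by
    unfold ds
    norm_num
  rw [e] at h
  exact h

theorem inv_0 : PInv (poissonLaw ds) g l0 0 S0.cp0 := by
  rw [S0.start_ok]
  exact pinv_start S0.check_ok

theorem inv_r0_0 : PInv (poissonLaw ds) g l0 3 S0.rc0 := by
  have h := inv_runP (n := 0) (k := 3) S0.check_ok law_ok inv_0
  rw [S0.run_ok0] at h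
  exact h

theorem inv_r0_1 : PInv (poissonLaw ds) g l0 5 S0.rc1 := by
  have h := inv_runP (n := 3) (k := 2) S0.check_ok law_ok inv_r0_0
  rw [S0.run_ok1] at h
  exact h

theorem inv_s1 : PInv (poissonLaw ds) g l0 5 S1.cp0 := by
  have h : S1.cp0 = S0.rc1 := by
    decide +kernel
  rw [h]
  exact inv_r0_1

theorem inv_r1_0 : PInv (poissonLaw ds) g l1 6 S1.rc0 := by
  have h := inv_run1P (n := 5) S1.check_ok law_ok inv_s1
  rw [S1.run_ok0] at h
  exact h

theorem inv_s2 : PInv (poissonLaw ds) g l1 6 S2.cp0 := by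
  have h : S2.cp0 = S1.rc0 := by
    decide +kernel
  rw [h]
  exact inv_r1_0

theorem inv_r2_0 : PInv (poissonLaw ds) g l1 8 S2.rc0 := by
  have h := inv_runP (n := 6) (k := 2) S2.check_ok law_ok inv_s2
  rw [S2.run_ok0] at h
  exact h

theorem inv_r2_1 : PInv (poissonLaw ds) g l1 10 S2.rc1 := by
  have h := inv_runP (n := 8) (k := 2) S2.check_ok law_ok inv_r2_0
  rw [S2.run_ok1] at h
  exact h

theorem inv_r2_2 : PInv (poissonLaw ds) g l1 12 S2.rc2 := by
  have h := inv_runP (n := 10) (k := 2) S2.check_ok law_ok inv_r2_1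
  rw [S2.run_ok2] at h
  exact h

theorem inv_r2_3 : PInv (poissonLaw ds) g l1 13 S2.rc3 := by
  have h := inv_runP (n := 12) (k := 1) S2.check_ok law_ok inv_r2_2
  rw [S2.run_ok3] at h
  exact h

theorem inv_s3 : PInv (poissonLaw ds) g l1 13 S3.cp0 := by
  have h : S3.cp0 = S2.rc3 := by
    decide +kernel
  rw [h]
  exact inv_r2_3

theorem inv_r3_0 : PInv (poissonLaw ds) g l2 14 S3.rc0 := by
  have h := inv_run1P (n := 13) S3.check_ok law_ok inv_s3
  rw [S3.run_ok0] at h
  exact h

theorem inv_s4 : PInv (poissonLaw ds) g l2 14 S4.cp0 := by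
  have h : S4.cp0 = S3.rc0 := by
    decide +kernel
  rw [h]
  exact inv_r3_0

theorem inv_r4_0 : PInv (poissonLaw ds) g l2 16 S4.rc0 := by
  have h := inv_runP (n := 14) (k := 2) S4.check_ok law_ok inv_s4
  rw [S4.run_ok0] at h
  exact h

theorem inv_r4_1 : PInv (poissonLaw ds) g l2 18 S4.rc1 := by
  have h := inv_runP (n := 16) (k := 2) S4.check_ok law_ok inv_r4_0
  rw [S4.run_ok1] at h
  exact h

theorem inv_r4_2 : PInv (poissonLaw ds) g l2 20 S4.rc2 := by
  have h := inv_runP (n := 18) (k := 2) S4.check_ok law_ok inv_r4_1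
  rw [S4.run_ok2] at h
  exact h

theorem inv_r4_3 : PInv (poissonLaw ds) g l2 22 S4.rc3 := by
  have h := inv_runP (n := 20) (k := 2) S4.check_ok law_ok inv_r4_2
  rw [S4.run_ok3] at h
  exact h

theorem inv_r4_4 : PInv (poissonLaw ds) g l2 24 S4.rc4 := by
  have h := inv_runP (n := 22) (k := 2) S4.check_ok law_ok inv_r4_3
  rw [S4.run_ok4] at h
  exact h

theorem inv_r4_5 : PInv (poissonLaw ds) g l2 26 S4.rc5 := by
  have h := inv_runP (n := 24) (k := 2) S4.check_ok law_ok inv_r4_4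
  rw [S4.run_ok5] at h
  exact h

theorem inv_r4_6 : PInv (poissonLaw ds) g l2 28 S4.rc6 := by
  have h := inv_runP (n := 26) (k := 2) S4.check_ok law_ok inv_r4_5
  rw [S4.run_ok6] at h
  exact h

theorem inv_r4_7 : PInv (poissonLaw ds) g l2 30 S4.rc7 := by
  have h := inv_runP (n := 28) (k := 2) S4.check_ok law_ok inv_r4_6
  rw [S4.run_ok7] at h
  exact h

theorem inv_s5 : PInv (poissonLaw ds) g l2 30 S5.cp0 := by
  have h : S5.cp0 = S4.rc7 := by
    decide +kernel
  rw [h]
  exact inv_r4_7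

theorem inv_r5_0 : PInv (poissonLaw ds) g l3 31 S5.rc0 := by
  have h := inv_run1P (n := 30) S5.check_ok law_ok inv_s5
  rw [S5.run_ok0] at h
  exact h

theorem inv_s6 : PInv (poissonLaw ds) g l3 31 S6.cp0 := by
  have h : S6.cp0 = S5.rc0 := by
    decide +kernel
  rw [h]
  exact inv_r5_0

theorem inv_r6_0 : PInv (poissonLaw ds) g l3 33 S6.rc0 := by
  have h := inv_runP (n := 31) (k := 2) S6.check_ok law_ok inv_s6
  rw [S6.run_ok0] at h
  exact h

theorem inv_r6_1 : PInv (poissonLaw ds) g l3 35 S6.rc1 := by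
  have h := inv_runP (n := 33) (k := 2) S6.check_ok law_ok inv_r6_0
  rw [S6.run_ok1] at h
  exact h

theorem inv_r6_2 : PInv (poissonLaw ds) g l3 37 S6.rc2 := by
  have h := inv_runP (n := 35) (k := 2) S6.check_ok law_ok inv_r6_1
  rw [S6.run_ok2] at h
  exact h

theorem inv_r6_3 : PInv (poissonLaw ds) g l3 39 S6.rc3 := by
  have h := inv_runP (n := 37) (k := 2) S6.check_ok law_ok inv_r6_2
  rw [S6.run_ok3] at h
  exact h

theorem inv_r6_4 : PInv (poissonLaw ds) g l3 41 S6.rc4 := by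
  have h := inv_runP (n := 39) (k := 2) S6.check_ok law_ok inv_r6_3
  rw [S6.run_ok4] at h
  exact h

theorem inv_r6_5 : PInv (poissonLaw ds) g l3 43 S6.rc5 := by
  have h := inv_runP (n := 41) (k := 2) S6.check_ok law_ok inv_r6_4
  rw [S6.run_ok5] at h
  exact h

theorem inv_r6_6 : PInv (poissonLaw ds) g l3 45 S6.rc6 := by
  have h := inv_runP (n := 43) (k := 2) S6.check_ok law_ok inv_r6_5
  rw [S6.run_ok6] at h
  exact h

theorem inv_r6_7 : PInv (poissonLaw ds) g l3 47 S6.rc7 := by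
  have h := inv_runP (n := 45) (k := 2) S6.check_ok law_ok inv_r6_6
  rw [S6.run_ok7] at h
  exact h

theorem inv_r6_8 : PInv (poissonLaw ds) g l3 49 S6.rc8 := by
  have h := inv_runP (n := 47) (k := 2) S6.check_ok law_ok inv_r6_7
  rw [S6.run_ok8] at h
  exact h

theorem inv_r6_9 : PInv (poissonLaw ds) g l3 51 S6.rc9 := by
  have h := inv_runP (n := 49) (k := 2) S6.check_ok law_ok inv_r6_8
  rw [S6.run_ok9] at h
  exact h

theorem inv_r6_10 : PInv (poissonLaw ds) g l3 53 S6.rc10 := by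
  have h := inv_runP (n := 51) (k := 2) S6.check_ok law_ok inv_r6_9
  rw [S6.run_ok10] at h
  exact h

theorem inv_r6_11 : PInv (poissonLaw ds) g l3 55 S6.rc11 := by
  have h := inv_runP (n := 53) (k := 2) S6.check_ok law_ok inv_r6_10
  rw [S6.run_ok11] at h
  exact h

theorem inv_r6_12 : PInv (poissonLaw ds) g l3 57 S6.rc12 := by
  have h := inv_runP (n := 55) (k := 2) S6.check_ok law_ok inv_r6_11
  rw [S6.run_ok12] at h
  exact h

theorem inv_r6_13 : PInv (poissonLaw ds) g l3 59 S6.rc13 := by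
  have h := inv_runP (n := 57) (k := 2) S6.check_ok law_ok inv_r6_12
  rw [S6.run_ok13] at h
  exact h

theorem inv_r6_14 : PInv (poissonLaw ds) g l3 61 S6.rc14 := by
  have h := inv_runP (n := 59) (k := 2) S6.check_ok law_ok inv_r6_13
  rw [S6.run_ok14] at h
  exact h

theorem inv_r6_15 : PInv (poissonLaw ds) g l3 63 S6.rc15 := by
  have h := inv_runP (n := 61) (k := 2) S6.check_ok law_ok inv_r6_14
  rw [S6.run_ok15] at h
  exact h

theorem inv_r6_16 : PInv (poissonLaw ds) g l3 65 S6.rc16 := by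
  have h := inv_runP (n := 63) (k := 2) S6.check_ok law_ok inv_r6_15
  rw [S6.run_ok16] at h
  exact h

theorem inv_r6_17 : PInv (poissonLaw ds) g l3 67 S6.rc17 := by
  have h := inv_runP (n := 65) (k := 2) S6.check_ok law_ok inv_r6_16
  rw [S6.run_ok17] at h
  exact h

theorem inv_r6_18 : PInv (poissonLaw ds) g l3 69 S6.rc18 := by
  have h := inv_runP (n := 67) (k := 2) S6.check_ok law_ok inv_r6_17
  rw [S6.run_ok18] at h
  exact h

theorem inv_r6_19 : PInv (poissonLaw ds) g l3 71 S6.rc19 := by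
  have h := inv_runP (n := 69) (k := 2) S6.check_ok law_ok inv_r6_18
  rw [S6.run_ok19] at h
  exact h

theorem inv_r6_20 : PInv (poissonLaw ds) g l3 73 S6.rc20 := by
  have h := inv_runP (n := 71) (k := 2) S6.check_ok law_ok inv_r6_19
  rw [S6.run_ok20] at h
  exact h

theorem inv_r6_21 : PInv (poissonLaw ds) g l3 75 S6.rc21 := by
  have h := inv_runP (n := 73) (k := 2) S6.check_ok law_ok inv_r6_20
  rw [S6.run_ok21] at h
  exact h

theorem inv_r6_22 : PInv (poissonLaw ds) g l3 77 S6.rc22 := by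
  have h := inv_runP (n := 75) (k := 2) S6.check_ok law_ok inv_r6_21
  rw [S6.run_ok22] at h
  exact h

theorem inv_s7 : PInv (poissonLaw ds) g l3 77 S7.cp0 := by
  have h : S7.cp0 = S6.rc22 := by
    decide +kernel
  rw [h]
  exact inv_r6_22

theorem inv_r7_0 : PInv (poissonLaw ds) g l4 78 S7.rc0 := by
  have h := inv_run1P (n := 77) S7.check_ok law_ok inv_s7
  rw [S7.run_ok0] at h
  exact h

theorem inv_s8 : PInv (poissonLaw ds) g l4 78 S8.cp0 := by
  have h : S8.cp0 = S7.rc0 := by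
    decide +kernel
  rw [h]
  exact inv_r7_0

theorem inv_r8_0 : PInv (poissonLaw ds) g l4 79 S8.rc0 := by
  have h := inv_runP (n := 78) (k := 1) S8.check_ok law_ok inv_s8
  rw [S8.run_ok0] at h
  exact h

theorem inv_r8_1 : PInv (poissonLaw ds) g l4 80 S8.rc1 := by
  have h := inv_runP (n := 79) (k := 1) S8.check_ok law_ok inv_r8_0
  rw [S8.run_ok1] at h
  exact h

theorem inv_r8_2 : PInv (poissonLaw ds) g l4 81 S8.rc2 := by
  have h := inv_runP (n := 80) (k := 1) S8.check_ok law_ok inv_r8_1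
  rw [S8.run_ok2] at h
  exact h

theorem inv_r8_3 : PInv (poissonLaw ds) g l4 82 S8.rc3 := by
  have h := inv_runP (n := 81) (k := 1) S8.check_ok law_ok inv_r8_2
  rw [S8.run_ok3] at h
  exact h

theorem inv_r8_4 : PInv (poissonLaw ds) g l4 83 S8.rc4 := by
  have h := inv_runP (n := 82) (k := 1) S8.check_ok law_ok inv_r8_3
  rw [S8.run_ok4] at h
  exact h

theorem inv_r8_5 : PInv (poissonLaw ds) g l4 84 S8.rc5 := by
  have h := inv_runP (n := 83) (k := 1) S8.check_ok law_ok inv_r8_4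
  rw [S8.run_ok5] at h
  exact h

theorem inv_r8_6 : PInv (poissonLaw ds) g l4 85 S8.rc6 := by
  have h := inv_runP (n := 84) (k := 1) S8.check_ok law_ok inv_r8_5
  rw [S8.run_ok6] at h
  exact h

theorem inv_r8_7 : PInv (poissonLaw ds) g l4 86 S8.rc7 := by
  have h := inv_runP (n := 85) (k := 1) S8.check_ok law_ok inv_r8_6
  rw [S8.run_ok7] at h
  exact h

theorem inv_r8_8 : PInv (poissonLaw ds) g l4 87 S8.rc8 := by
  have h := inv_runP (n := 86) (k := 1) S8.check_ok law_ok inv_r8_7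
  rw [S8.run_ok8] at h
  exact h

theorem inv_r8_9 : PInv (poissonLaw ds) g l4 88 S8.rc9 := by
  have h := inv_runP (n := 87) (k := 1) S8.check_ok law_ok inv_r8_8
  rw [S8.run_ok9] at h
  exact h

theorem inv_r8_10 : PInv (poissonLaw ds) g l4 89 S8.rc10 := by
  have h := inv_runP (n := 88) (k := 1) S8.check_ok law_ok inv_r8_9
  rw [S8.run_ok10] at h
  exact h

theorem inv_r8_11 : PInv (poissonLaw ds) g l4 90 S8.rc11 := by
  have h := inv_runP (n := 89) (k := 1) S8.check_ok law_ok inv_r8_10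
  rw [S8.run_ok11] at h
  exact h

theorem inv_r8_12 : PInv (poissonLaw ds) g l4 91 S8.rc12 := by
  have h := inv_runP (n := 90) (k := 1) S8.check_ok law_ok inv_r8_11
  rw [S8.run_ok12] at h
  exact h

theorem inv_r8_13 : PInv (poissonLaw ds) g l4 92 S8.rc13 := by
  have h := inv_runP (n := 91) (k := 1) S8.check_ok law_ok inv_r8_12
  rw [S8.run_ok13] at h
  exact h

theorem inv_r8_14 : PInv (poissonLaw ds) g l4 93 S8.rc14 := by
  have h := inv_runP (n := 92) (k := 1) S8.check_ok law_ok inv_r8_13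
  rw [S8.run_ok14] at h
  exact h

theorem inv_r8_15 : PInv (poissonLaw ds) g l4 94 S8.rc15 := by
  have h := inv_runP (n := 93) (k := 1) S8.check_ok law_ok inv_r8_14
  rw [S8.run_ok15] at h
  exact h

theorem inv_r8_16 : PInv (poissonLaw ds) g l4 95 S8.rc16 := by
  have h := inv_runP (n := 94) (k := 1) S8.check_ok law_ok inv_r8_15
  rw [S8.run_ok16] at h
  exact h

theorem inv_r8_17 : PInv (poissonLaw ds) g l4 96 S8.rc17 := by
  have h := inv_runP (n := 95) (k := 1) S8.check_ok law_ok inv_r8_16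
  rw [S8.run_ok17] at h
  exact h

theorem inv_r8_18 : PInv (poissonLaw ds) g l4 97 S8.rc18 := by
  have h := inv_runP (n := 96) (k := 1) S8.check_ok law_ok inv_r8_17
  rw [S8.run_ok18] at h
  exact h

theorem inv_r8_19 : PInv (poissonLaw ds) g l4 98 S8.rc19 := by
  have h := inv_runP (n := 97) (k := 1) S8.check_ok law_ok inv_r8_18
  rw [S8.run_ok19] at h
  exact h

theorem inv_r8_20 : PInv (poissonLaw ds) g l4 99 S8.rc20 := by
  have h := inv_runP (n := 98) (k := 1) S8.check_ok law_ok inv_r8_19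
  rw [S8.run_ok20] at h
  exact h

theorem inv_r8_21 : PInv (poissonLaw ds) g l4 100 S8.rc21 := by
  have h := inv_runP (n := 99) (k := 1) S8.check_ok law_ok inv_r8_20
  rw [S8.run_ok21] at h
  exact h

theorem inv_r8_22 : PInv (poissonLaw ds) g l4 101 S8.rc22 := by
  have h := inv_runP (n := 100) (k := 1) S8.check_ok law_ok inv_r8_21
  rw [S8.run_ok22] at h
  exact h

theorem inv_r8_23 : PInv (poissonLaw ds) g l4 102 S8.rc23 := by
  have h := inv_runP (n := 101) (k := 1) S8.check_ok law_ok inv_r8_22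
  rw [S8.run_ok23] at h
  exact h

theorem inv_r8_24 : PInv (poissonLaw ds) g l4 103 S8.rc24 := by
  have h := inv_runP (n := 102) (k := 1) S8.check_ok law_ok inv_r8_23
  rw [S8.run_ok24] at h
  exact h

theorem inv_r8_25 : PInv (poissonLaw ds) g l4 104 S8.rc25 := by
  have h := inv_runP (n := 103) (k := 1) S8.check_ok law_ok inv_r8_24
  rw [S8.run_ok25] at h
  exact h

theorem inv_r8_26 : PInv (poissonLaw ds) g l4 105 S8.rc26 := by
  have h := inv_runP (n := 104) (k := 1) S8.check_ok law_ok inv_r8_25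
  rw [S8.run_ok26] at h
  exact h

theorem inv_r8_27 : PInv (poissonLaw ds) g l4 106 S8.rc27 := by
  have h := inv_runP (n := 105) (k := 1) S8.check_ok law_ok inv_r8_26
  rw [S8.run_ok27] at h
  exact h

theorem inv_r8_28 : PInv (poissonLaw ds) g l4 107 S8.rc28 := by
  have h := inv_runP (n := 106) (k := 1) S8.check_ok law_ok inv_r8_27
  rw [S8.run_ok28] at h
  exact h

theorem inv_r8_29 : PInv (poissonLaw ds) g l4 108 S8.rc29 := by
  have h := inv_runP (n := 107) (k := 1) S8.check_ok law_ok inv_r8_28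
  rw [S8.run_ok29] at h
  exact h

theorem inv_r8_30 : PInv (poissonLaw ds) g l4 109 S8.rc30 := by
  have h := inv_runP (n := 108) (k := 1) S8.check_ok law_ok inv_r8_29
  rw [S8.run_ok30] at h
  exact h

theorem inv_r8_31 : PInv (poissonLaw ds) g l4 110 S8.rc31 := by
  have h := inv_runP (n := 109) (k := 1) S8.check_ok law_ok inv_r8_30
  rw [S8.run_ok31] at h
  exact h

theorem inv_r8_32 : PInv (poissonLaw ds) g l4 111 S8.rc32 := by
  have h := inv_runP (n := 110) (k := 1) S8.check_ok law_ok inv_r8_31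
  rw [S8.run_ok32] at h
  exact h

theorem inv_r8_33 : PInv (poissonLaw ds) g l4 112 S8.rc33 := by
  have h := inv_runP (n := 111) (k := 1) S8.check_ok law_ok inv_r8_32
  rw [S8.run_ok33] at h
  exact h

theorem inv_r8_34 : PInv (poissonLaw ds) g l4 113 S8.rc34 := by
  have h := inv_runP (n := 112) (k := 1) S8.check_ok law_ok inv_r8_33
  rw [S8.run_ok34] at h
  exact h

theorem inv_r8_35 : PInv (poissonLaw ds) g l4 114 S8.rc35 := by
  have h := inv_runP (n := 113) (k := 1) S8.check_ok law_ok inv_r8_34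
  rw [S8.run_ok35] at h
  exact h

theorem inv_r8_36 : PInv (poissonLaw ds) g l4 115 S8.rc36 := by
  have h := inv_runP (n := 114) (k := 1) S8.check_ok law_ok inv_r8_35
  rw [S8.run_ok36] at h
  exact h

theorem inv_r8_37 : PInv (poissonLaw ds) g l4 116 S8.rc37 := by
  have h := inv_runP (n := 115) (k := 1) S8.check_ok law_ok inv_r8_36
  rw [S8.run_ok37] at h
  exact h

theorem inv_r8_38 : PInv (poissonLaw ds) g l4 117 S8.rc38 := by
  have h := inv_runP (n := 116) (k := 1) S8.check_ok law_ok inv_r8_37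
  rw [S8.run_ok38] at h
  exact h

theorem inv_r8_39 : PInv (poissonLaw ds) g l4 118 S8.rc39 := by
  have h := inv_runP (n := 117) (k := 1) S8.check_ok law_ok inv_r8_38
  rw [S8.run_ok39] at h
  exact h

theorem inv_r8_40 : PInv (poissonLaw ds) g l4 119 S8.rc40 := by
  have h := inv_runP (n := 118) (k := 1) S8.check_ok law_ok inv_r8_39
  rw [S8.run_ok40] at h
  exact h

theorem inv_r8_41 : PInv (poissonLaw ds) g l4 120 S8.rc41 := by
  have h := inv_runP (n := 119) (k := 1) S8.check_ok law_ok inv_r8_40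
  rw [S8.run_ok41] at h
  exact h

theorem inv_r8_42 : PInv (poissonLaw ds) g l4 121 S8.rc42 := by
  have h := inv_runP (n := 120) (k := 1) S8.check_ok law_ok inv_r8_41
  rw [S8.run_ok42] at h
  exact h

theorem inv_s9 : PInv (poissonLaw ds) g l4 121 S9.cp0 := by
  have h : S9.cp0 = S8.rc42 := by
    decide +kernel
  rw [h]
  exact inv_r8_42

theorem inv_r9_0 : PInv (poissonLaw ds) g l4 122 S9.rc0 := by
  have h := inv_runP (n := 121) (k := 1) S9.check_ok law_ok inv_s9
  rw [S9.run_ok0] at h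
  exact h

theorem inv_r9_1 : PInv (poissonLaw ds) g l4 123 S9.rc1 := by
  have h := inv_runP (n := 122) (k := 1) S9.check_ok law_ok inv_r9_0
  rw [S9.run_ok1] at h
  exact h

theorem inv_r9_2 : PInv (poissonLaw ds) g l4 124 S9.rc2 := by
  have h := inv_runP (n := 123) (k := 1) S9.check_ok law_ok inv_r9_1
  rw [S9.run_ok2] at h
  exact h

theorem inv_r9_3 : PInv (poissonLaw ds) g l4 125 S9.rc3 := by
  have h := inv_runP (n := 124) (k := 1) S9.check_ok law_ok inv_r9_2
  rw [S9.run_ok3] at h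
  exact h

theorem inv_r9_4 : PInv (poissonLaw ds) g l4 126 S9.rc4 := by
  have h := inv_runP (n := 125) (k := 1) S9.check_ok law_ok inv_r9_3
  rw [S9.run_ok4] at h
  exact h

theorem inv_r9_5 : PInv (poissonLaw ds) g l4 127 S9.rc5 := by
  have h := inv_runP (n := 126) (k := 1) S9.check_ok law_ok inv_r9_4
  rw [S9.run_ok5] at h
  exact h

theorem inv_r9_6 : PInv (poissonLaw ds) g l4 128 S9.rc6 := by
  have h := inv_runP (n := 127) (k := 1) S9.check_ok law_ok inv_r9_5
  rw [S9.run_ok6] at h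
  exact h

theorem inv_r9_7 : PInv (poissonLaw ds) g l4 129 S9.rc7 := by
  have h := inv_runP (n := 128) (k := 1) S9.check_ok law_ok inv_r9_6
  rw [S9.run_ok7] at h
  exact h

theorem inv_r9_8 : PInv (poissonLaw ds) g l4 130 S9.rc8 := by
  have h := inv_runP (n := 129) (k := 1) S9.check_ok law_ok inv_r9_7
  rw [S9.run_ok8] at h
  exact h

theorem inv_r9_9 : PInv (poissonLaw ds) g l4 131 S9.rc9 := by
  have h := inv_runP (n := 130) (k := 1) S9.check_ok law_ok inv_r9_8
  rw [S9.run_ok9] at h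
  exact h

theorem inv_r9_10 : PInv (poissonLaw ds) g l4 132 S9.rc10 := by
  have h := inv_runP (n := 131) (k := 1) S9.check_ok law_ok inv_r9_9
  rw [S9.run_ok10] at h
  exact h

theorem inv_r9_11 : PInv (poissonLaw ds) g l4 133 S9.rc11 := by
  have h := inv_runP (n := 132) (k := 1) S9.check_ok law_ok inv_r9_10
  rw [S9.run_ok11] at h
  exact h

theorem inv_r9_12 : PInv (poissonLaw ds) g l4 134 S9.rc12 := by
  have h := inv_runP (n := 133) (k := 1) S9.check_ok law_ok inv_r9_11
  rw [S9.run_ok12] at h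
  exact h

theorem inv_r9_13 : PInv (poissonLaw ds) g l4 135 S9.rc13 := by
  have h := inv_runP (n := 134) (k := 1) S9.check_ok law_ok inv_r9_12
  rw [S9.run_ok13] at h
  exact h

theorem inv_r9_14 : PInv (poissonLaw ds) g l4 136 S9.rc14 := by
  have h := inv_runP (n := 135) (k := 1) S9.check_ok law_ok inv_r9_13
  rw [S9.run_ok14] at h
  exact h

theorem inv_r9_15 : PInv (poissonLaw ds) g l4 137 S9.rc15 := by
  have h := inv_runP (n := 136) (k := 1) S9.check_ok law_ok inv_r9_14
  rw [S9.run_ok15] at h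
  exact h

theorem inv_r9_16 : PInv (poissonLaw ds) g l4 138 S9.rc16 := by
  have h := inv_runP (n := 137) (k := 1) S9.check_ok law_ok inv_r9_15
  rw [S9.run_ok16] at h
  exact h

theorem inv_r9_17 : PInv (poissonLaw ds) g l4 139 S9.rc17 := by
  have h := inv_runP (n := 138) (k := 1) S9.check_ok law_ok inv_r9_16
  rw [S9.run_ok17] at h
  exact h

theorem inv_r9_18 : PInv (poissonLaw ds) g l4 140 S9.rc18 := by
  have h := inv_runP (n := 139) (k := 1) S9.check_ok law_ok inv_r9_17
  rw [S9.run_ok18] at h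
  exact h

theorem inv_r9_19 : PInv (poissonLaw ds) g l4 141 S9.rc19 := by
  have h := inv_runP (n := 140) (k := 1) S9.check_ok law_ok inv_r9_18
  rw [S9.run_ok19] at h
  exact h

theorem inv_r9_20 : PInv (poissonLaw ds) g l4 142 S9.rc20 := by
  have h := inv_runP (n := 141) (k := 1) S9.check_ok law_ok inv_r9_19
  rw [S9.run_ok20] at h
  exact h

theorem inv_r9_21 : PInv (poissonLaw ds) g l4 143 S9.rc21 := by
  have h := inv_runP (n := 142) (k := 1) S9.check_ok law_ok inv_r9_20
  rw [S9.run_ok21] at h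
  exact h

theorem inv_r9_22 : PInv (poissonLaw ds) g l4 144 S9.rc22 := by
  have h := inv_runP (n := 143) (k := 1) S9.check_ok law_ok inv_r9_21
  rw [S9.run_ok22] at h
  exact h

theorem inv_r9_23 : PInv (poissonLaw ds) g l4 145 S9.rc23 := by
  have h := inv_runP (n := 144) (k := 1) S9.check_ok law_ok inv_r9_22
  rw [S9.run_ok23] at h
  exact h

theorem inv_r9_24 : PInv (poissonLaw ds) g l4 146 S9.rc24 := by
  have h := inv_runP (n := 145) (k := 1) S9.check_ok law_ok inv_r9_23
  rw [S9.run_ok24] at h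
  exact h

theorem inv_r9_25 : PInv (poissonLaw ds) g l4 147 S9.rc25 := by
  have h := inv_runP (n := 146) (k := 1) S9.check_ok law_ok inv_r9_24
  rw [S9.run_ok25] at h
  exact h

theorem inv_r9_26 : PInv (poissonLaw ds) g l4 148 S9.rc26 := by
  have h := inv_runP (n := 147) (k := 1) S9.check_ok law_ok inv_r9_25
  rw [S9.run_ok26] at h
  exact h

theorem inv_r9_27 : PInv (poissonLaw ds) g l4 149 S9.rc27 := by
  have h := inv_runP (n := 148) (k := 1) S9.check_ok law_ok inv_r9_26
  rw [S9.run_ok27] at h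
  exact h

theorem inv_r9_28 : PInv (poissonLaw ds) g l4 150 S9.rc28 := by
  have h := inv_runP (n := 149) (k := 1) S9.check_ok law_ok inv_r9_27
  rw [S9.run_ok28] at h
  exact h

theorem inv_r9_29 : PInv (poissonLaw ds) g l4 151 S9.rc29 := by
  have h := inv_runP (n := 150) (k := 1) S9.check_ok law_ok inv_r9_28
  rw [S9.run_ok29] at h
  exact h

theorem inv_r9_30 : PInv (poissonLaw ds) g l4 152 S9.rc30 := by
  have h := inv_runP (n := 151) (k := 1) S9.check_ok law_ok inv_r9_29
  rw [S9.run_ok30] at h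
  exact h

theorem inv_r9_31 : PInv (poissonLaw ds) g l4 153 S9.rc31 := by
  have h := inv_runP (n := 152) (k := 1) S9.check_ok law_ok inv_r9_30
  rw [S9.run_ok31] at h
  exact h

theorem inv_r9_32 : PInv (poissonLaw ds) g l4 154 S9.rc32 := by
  have h := inv_runP (n := 153) (k := 1) S9.check_ok law_ok inv_r9_31
  rw [S9.run_ok32] at h
  exact h

theorem inv_r9_33 : PInv (poissonLaw ds) g l4 155 S9.rc33 := by
  have h := inv_runP (n := 154) (k := 1) S9.check_ok law_ok inv_r9_32
  rw [S9.run_ok33] at h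
  exact h

theorem inv_r9_34 : PInv (poissonLaw ds) g l4 156 S9.rc34 := by
  have h := inv_runP (n := 155) (k := 1) S9.check_ok law_ok inv_r9_33
  rw [S9.run_ok34] at h
  exact h

theorem inv_r9_35 : PInv (poissonLaw ds) g l4 157 S9.rc35 := by
  have h := inv_runP (n := 156) (k := 1) S9.check_ok law_ok inv_r9_34
  rw [S9.run_ok35] at h
  exact h

theorem inv_r9_36 : PInv (poissonLaw ds) g l4 158 S9.rc36 := by
  have h := inv_runP (n := 157) (k := 1) S9.check_ok law_ok inv_r9_35
  rw [S9.run_ok36] at h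
  exact h

theorem inv_r9_37 : PInv (poissonLaw ds) g l4 159 S9.rc37 := by
  have h := inv_runP (n := 158) (k := 1) S9.check_ok law_ok inv_r9_36
  rw [S9.run_ok37] at h
  exact h

theorem inv_r9_38 : PInv (poissonLaw ds) g l4 160 S9.rc38 := by
  have h := inv_runP (n := 159) (k := 1) S9.check_ok law_ok inv_r9_37
  rw [S9.run_ok38] at h
  exact h

theorem inv_e : PInv (poissonLaw ds) g l4 160 S9.cp1 := by
  have h : S9.cp1 = S9.rc38 := by
    decide +kernel
  rw [h]
  exact inv_r9_38

theorem hand : ∃ A : FF, A.Good ∧ (∀ G, Sublin G → Symm G → PhiE (gwEx (poissonLaw ds) (lamOf g) (160 + 1)) G ≤ val A.F G)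
      ∧ InClass ((hp.kapN : ℝ) / hp.kapD) ((hp.bpN : ℝ) / hp.bpD) ((hp.bmN : ℝ) / hp.bmD) (famEx A.F)
          ((hp.Mn : ℝ) / hp.Md) ∧ famEx A.F I2cb ≤ ((934 : ℕ) : ℝ) / ((10000000 : ℕ) : ℝ) :=
  handoffP S9.check_ok law_ok inv_e (by decide +kernel) (by decide +kernel) (by decide +kernel)
    (by decide +kernel) (by decide +kernel) S9.hand_ok

/-- what the chain gives -/
theorem box : BoxOK (20489 / 5000) (991 / 2000) (21188 / 1000000) (241 / 100) (98 / 100) (1 / 1) (934 / 10000000) := by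
  obtain ⟨A, h1, h2, h3, h4⟩ := hand
  have el : lamOf g = -((991 : ℝ) / 2000) := by
    have e : lamOf g = -((g.ln : ℝ) / g.ld) := rfl
    rw [e]
    norm_num [g]
  have e1 : ((hp.kapN : ℝ) / hp.kapD) = 241 / 100 := by norm_num [hp]
  have e2 : ((hp.bpN : ℝ) / hp.bpD) = 98 / 100 := by norm_num [hp]
  have e3 : ((hp.bmN : ℝ) / hp.bmD) = 1 / 1 := by norm_num [hp]
  have e4 : ((hp.Mn : ℝ) / hp.Md) = 21188 / 1000000 := by norm_num [hp]
  have e5 : (((934 : ℕ) : ℝ) / ((10000000 : ℕ) : ℝ)) = 934 / 10000000 := by norm_num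
  rw [el] at h2
  rw [e1, e2, e3, e4] at h3
  rw [e5] at h4
  exact ⟨160 + 1, A, h1, h2, h3, h4⟩

end Vale.Agent.Lib.P154.PChain.BD
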