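import Vale.Agent.Lib.P154.PChain.BD.R8_4

set_option linter.all false

namespace Vale.Agent.Lib.P154.PChain.BD.S8

open Vale.Agent.Lib.P154.Chain

set_option maxRecDepth 10000000 in
def run_ok40 : runP g l4 (vPacked vl) wp Tp Tx Te Tz 1 rc39 = rc40 := by
  decide +kernel

set_option maxRecDepth 10000000 in
def run_ok41 : runP g l4 (vPacked vl) wp Tp Tx Te Tz 1 rc40 = rc41 := by
  decide +kernel

set_option maxRecDepth 10000000 in
def run_ok42 : runP g l4 (vPacked vl) wp Tp Tx Te Tz 1 rc41 = rc42 := by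
  decide +kernel

end Vale.Agent.Lib.P154.PChain.BD.S8
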